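import Vale.Agent.Lib.P328.Ent.Main

/-!
# A quasi-polynomial factor bound for the number of contingency tables, for all margins

For all margins `r`, `c` of total `N`, with no condition at all, the number of tables is at most
`exp (2500000 * log (N + 3) ^ 7) * betaC c * Ihat r c`. Here `Ihat r c` is the expectation over an
exponential random matrix `t` of the capacity of `∏ i, (∑ j, t j i * b j) ^ r i` at `b ^ c`, divided
by `∏ i, r i !`, and the capacity is log-concave in `t`. The number of tables is the same expression
with the coefficient of `b ^ c` in place of the capacity.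

The proof goes column by column (smallest column first). It is an entropy chain along the posterior
of the first column: for every `t`, with `p i` the posterior share of row `i` in the column, the loss
of the column is at most the logarithm of the ratio of `P (∑ i, Bin (r i, p i) = c)` to
`P (Bin (N, c / N) = c)`, and this is controlled by `∑ i, r i * p i ^ 2` (Hoeffding, and an exact
identity for sums of binomials at their mean). Then `t` is averaged against the exact density of
`t` given a uniform table (Gamma laws): a switching identity and Jensen's inequality bound the
shares by reciprocals of cross ratios, whose Gamma integrals are finite up to a logarithm. Finally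
geometric tails and a two column lemma for uniform tables give a loss of `O (log ^ 6 N / ν)` at
the stage with `ν` columns.
-/

open Finset MeasureTheory Vale.Agent.Lib.P328.Cap Vale.Agent.Lib.P328.Sparse
open scoped ENNReal

/-- **Expected capacity bound for contingency tables with arbitrary margins.** For all margins with
the same total `N`: `Ihat` is finite; the number of tables is at most
`exp (a) * betaC c * Ihat r c`, with `a = 2500000 * log (N + 3) ^ 7`; the mean of `F log K` against
the exponential density is at most `a` times the number of tables; the capacity is log-concave in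
the positive coefficient matrix. -/
theorem Vale.Agent.Lib.P328.Old.A_allmargins_result {m n : ℕ} (hn : 0 < n) (r : Fin m → ℕ)
    (c : Fin n → ℕ) (hsum : ∑ i, r i = ∑ j, c j) :
    Ihat r c < ⊤ ∧
    ((tabs r c).card : ℝ≥0∞)
      ≤ ENNReal.ofReal
          (Real.exp (2500000 * Real.log (((∑ j, c j : ℕ) : ℝ) + 3) ^ 7) * betaC c) * Ihat r c ∧
    (∫⁻ t : Fin n → Fin m → ℝ, (∏ j, ∏ i, expDens (t j i)) * ENNReal.ofReal (FF r c t * LK r c t))
      ≤ ((tabs r c).card : ℝ≥0∞) * ENNReal.ofReal (2500000 * Real.log (((∑ j, c j : ℕ) : ℝ) + 3) ^ 7) ∧
    ∀ t t' : Fin n → Fin m → ℝ, (∀ j i, 0 < t j i) → (∀ j i, 0 < t' j i) →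
      ∀ a : ℝ, 0 ≤ a → a ≤ 1 →
        capa r c t ^ a * capa r c t' ^ (1 - a) ≤ capa r c fun j i => a * t j i + (1 - a) * t' j i := by
  obtain ⟨h1, h2⟩ := Vale.Agent.Lib.P328.Ent.all_margins r c hn hsum
  exact ⟨Ihat_lt_top r c, h1, h2, fun t t' ht ht' a ha ha1 => capa_logconc r c t t' ht ht' a ha ha1⟩
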