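import Vale.Agent.Lib.P328.Sparse.Final
import Vale.Agent.Lib.P328.Sparse.KpBound

/-!
# A polynomial factor bound for sparse contingency tables with unequal margins

For margins `r`, `c` of total `N` with all margins at most `N / 32`, the number of tables is at most
`exp (18000 (1 + K) ^ 2 (1 + log N)) * betaC c * Ihat r c`, that is `N ^ O ((1 + K) ^ 2)` times the
expected capacity. Here `K = Kp r c` is the density parameter of the margins: `K ≤ 10 Δr Δc (1 + log N) ^ 2 / N`
for the largest margins `Δr`, `Δc`, and `K ≤ 10 N / (m n)` for regular margins.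

The proof is a chain inequality along the removal of one unit at a time, valid pointwise in the
coefficient matrix, a switching (flux) bound, Gamma integrals of reciprocal partner sums and
second moments of a uniform table.
-/

open Finset MeasureTheory Vale.Agent.Lib.P328.Cap Vale.Agent.Lib.P328.Sparse
open scoped ENNReal

/-- **Expected capacity bound for sparse margins, without any smoothness or equality of margins.**
`Ihat` is finite; the number of tables is at most `exp (a) * betaC c * Ihat r c`, with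
`a = 18000 (1 + K) ^ 2 (1 + log N)`; the mean of `F log K` against the exponential density is at most
`a` times the number of tables; the density parameter `K` has the two explicit bounds. -/
theorem Vale.Agent.Lib.P328.Old.D_sparse_result {m n : ℕ} (r : Fin m → ℕ) (c : Fin n → ℕ)
    (hsum : ∑ i, r i = ∑ j, c j) (hN : 0 < ∑ i, r i)
    (hr : ∀ i, 32 * r i ≤ ∑ i, r i) (hc : ∀ j, 32 * c j ≤ ∑ i, r i) :
    Ihat r c < ⊤ ∧
    ((tabs r c).card : ℝ≥0∞)
      ≤ ENNReal.ofReal
          (Real.exp (18000 * (1 + Kp r c) ^ 2 * (1 + Real.log ((∑ i, r i : ℕ) : ℝ))) * betaC c)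
        * Ihat r c ∧
    (∫⁻ t : Fin n → Fin m → ℝ, (∏ j, ∏ i, expDens (t j i)) * ENNReal.ofReal (FF r c t * LK r c t))
      ≤ ENNReal.ofReal (18000 * (1 + Kp r c) ^ 2 * (1 + Real.log ((∑ i, r i : ℕ) : ℝ)) *
          ((tabs r c).card : ℝ)) ∧
    Kp r c ≤ 10 * ((univ.sup r : ℕ) : ℝ) * ((univ.sup c : ℕ) : ℝ)
        * (1 + Real.log ((∑ i, r i : ℕ) : ℝ)) ^ 2 / ((∑ i, r i : ℕ) : ℝ) ∧
    ((∀ i i', r i = r i') → (∀ j j', c j = c j') → 3 ≤ m → 3 ≤ n →
      Kp r c ≤ 10 * ((∑ i, r i : ℕ) : ℝ) / ((m : ℝ) * (n : ℝ))) ∧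
    ∀ t t' : Fin n → Fin m → ℝ, (∀ j i, 0 < t j i) → (∀ j i, 0 < t' j i) →
      ∀ a : ℝ, 0 ≤ a → a ≤ 1 →
        capa r c t ^ a * capa r c t' ^ (1 - a) ≤ capa r c fun j i => a * t j i + (1 - a) * t' j i :=
  ⟨Ihat_lt_top r c, card_tabs_le_sparse r c hsum hN hr hc, lint_FF_LK r c hsum hN hr hc,
    Kp_le_max r c hsum hN, fun h1 h2 h3 h4 => Kp_le_regular r c hsum h1 h2 h3 h4,
    fun t t' ht ht' a ha ha1 => capa_logconc r c t t' ht ht' a ha ha1⟩
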